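import Vale.Agent.P146.R2.H453.Avg

/-!
# P146 R3 (helper316): fresh sums started from a vertex with an edge at `j`
-/

open Finset

namespace Vale.Agent.P146.R3.H316

open Vale.Agent.P146 Vale.Agent.P146.H453

variable {n : ℕ}

/-- restriction to `v ≠ j` and at least two edges at `j` -/
noncomputable def mk (j : Fin n) (A : Fam n) : Fam n :=
  fun v α => if v ≠ j ∧ 2 ≤ deg α j then A v α else 0

/-- the part of `nv` with an edge at `j` -/
noncomputable def nd (t : ℝ) (L : ℕ) (A : Fam n) (j : Fin n) : ℝ :=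
  ∑ α ∈ (ML n L).filter (fun α => deg α j ≠ 0), wt t α * A j α ^ 2

lemma mk_sq_le (j : Fin n) (A : Fam n) (v : Fin n) (α : MI n) :
    mk j A v α ^ 2 ≤ A v α ^ 2 := by
  unfold mk
  split_ifs
  · exact le_rfl
  · rw [zero_pow (by norm_num)]
    exact sq_nonneg _

lemma ns_mk_le {t : ℝ} (ht : 0 ≤ t) (L : ℕ) (j : Fin n) (A : Fam n) :
    ns t L (mk j A) ≤ ns t L A :=
  Finset.sum_le_sum fun v _ => Finset.sum_le_sum fun α _ =>
    mul_le_mul_of_nonneg_left (mk_sq_le j A v α) (wt_nonneg ht α)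

lemma fs_ne {j v : Fin n} {α : MI n} {e : Pair n} (h : e ∈ fs {j} v α) : ot v e ≠ j := by
  rw [fs, mem_filter, mem_singleton] at h
  exact h.2.1

lemma fs_st {j v : Fin n} {α : MI n} {e : Pair n} (h : e ∈ fs {j} v α) : e ∈ st v :=
  (fs_sub {j} v α) h

/-- the degree at `j` does not change when a fresh edge is added at `v ≠ j` -/
lemma deg_fs_ne {j v : Fin n} {α : MI n} {e : Pair n} (h : e ∈ fs {j} v α) (hv : v ≠ j) :
    deg (α + un e) j = deg α j := by
  rw [deg_add, deg_un (fs_st h), if_neg (fun h' => hv h'.symm),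
    if_neg (fun h' => fs_ne h h'.symm)]
  omega

lemma deg_fs_self {j : Fin n} {α : MI n} {e : Pair n} (h : e ∈ fs {j} j α) :
    deg (α + un e) j = deg α j + 1 := by
  rw [deg_add, deg_un_of_mem (fs_st h)]

lemma fr_mk {j v : Fin n} (A : Fam n) {α : MI n} (hv : v ≠ j) (h : 2 ≤ deg α j) :
    fr {j} (mk j A) v α = fr {j} A v α := by
  unfold fr
  congr 1
  refine Finset.sum_congr rfl fun e he => ?_
  unfold mk
  rw [if_pos ⟨fs_ne he, by rw [deg_fs_ne he hv]; exact h⟩]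

lemma fr_mk_self {j : Fin n} (A : Fam n) {α : MI n} (h : deg α j ≠ 0) :
    fr {j} (mk j A) j α = fr {j} A j α := by
  unfold fr
  congr 1
  refine Finset.sum_congr rfl fun e he => ?_
  unfold mk
  rw [if_pos ⟨fs_ne he, by rw [deg_fs_self he]; omega⟩]

lemma mk_fr_mk (j : Fin n) (A : Fam n) : mk j (fr {j} (mk j A)) = mk j (fr {j} A) := by
  funext v α
  unfold mk
  by_cases h : v ≠ j ∧ 2 ≤ deg α j
  · rw [if_pos h, if_pos h]
    exact fr_mk A h.1 h.2
  · rw [if_neg h, if_neg h]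

lemma ns_mk_fr {t : ℝ} (ht : 0 ≤ t) (L : ℕ) (j : Fin n) (A : Fam n) :
    t * ns t L (mk j (fr {j} A)) ≤ ns t (L + 1) (mk j A) := by
  rw [← mk_fr_mk]
  exact (mul_le_mul_of_nonneg_left (ns_mk_le ht L j _) ht).trans (fr_norm ht L {j} (mk j A))

lemma ns_mk_fk {t : ℝ} (ht : 0 ≤ t) (j : Fin n) (A : Fam n) (k : ℕ) :
    ∀ L : ℕ, t ^ k * ns t L (mk j (fk {j} A k)) ≤ ns t (L + k) (mk j A) := by
  induction k with
  | zero =>
    intro L
    simp [fk]
  | succ k ih =>
    intro L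
    have h1 := ns_mk_fr ht L j (fk {j} A k)
    have h2 := ih (L + 1)
    calc t ^ (k + 1) * ns t L (mk j (fk {j} A (k + 1)))
        = t ^ k * (t * ns t L (mk j (fr {j} (fk {j} A k)))) := by rw [fk]; ring
      _ ≤ t ^ k * ns t (L + 1) (mk j (fk {j} A k)) :=
          mul_le_mul_of_nonneg_left h1 (pow_nonneg ht k)
      _ ≤ ns t (L + 1 + k) (mk j A) := h2
      _ = ns t (L + (k + 1)) (mk j A) := by rw [show L + 1 + k = L + (k + 1) by ring]

/-- the fresh sums at `(j, α)` with an edge of `α` at `j` -/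
lemma nd_fk {t : ℝ} (ht : 0 ≤ t) (j : Fin n) (A : Fam n) (k : ℕ) (hk : 1 ≤ k) (L : ℕ) :
    t ^ k * nd t L (fk {j} A k) j ≤ ns t (L + k) (mk j A) := by
  obtain ⟨m, rfl⟩ : ∃ m, k = m + 1 := ⟨k - 1, by omega⟩
  have h1 : nd t L (fk {j} A (m + 1)) j ≤ ns t L (fr {j} (mk j (fk {j} A m))) := by
    refine le_trans ?_ (nv_le_ns ht L _ j)
    unfold nd nv
    have h2 : ∑ α ∈ (ML n L).filter (fun α => deg α j ≠ 0), wt t α * fk {j} A (m + 1) j α ^ 2 =
        ∑ α ∈ (ML n L).filter (fun α => deg α j ≠ 0),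
          wt t α * fr {j} (mk j (fk {j} A m)) j α ^ 2 := by
      refine Finset.sum_congr rfl fun α hα => ?_
      rw [mem_filter] at hα
      rw [fr_mk_self _ hα.2, fk]
    rw [h2]
    exact sum_le_sum_of_subset_of_nonneg (filter_subset _ _) fun α _ _ =>
      mul_nonneg (wt_nonneg ht α) (sq_nonneg _)
  have h3 := fr_norm ht L {j} (mk j (fk {j} A m))
  have h4 := ns_mk_fk ht j A m (L + 1)
  calc t ^ (m + 1) * nd t L (fk {j} A (m + 1)) j
      ≤ t ^ (m + 1) * ns t L (fr {j} (mk j (fk {j} A m))) :=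
        mul_le_mul_of_nonneg_left h1 (pow_nonneg ht _)
    _ = t ^ m * (t * ns t L (fr {j} (mk j (fk {j} A m)))) := by ring
    _ ≤ t ^ m * ns t (L + 1) (mk j (fk {j} A m)) :=
        mul_le_mul_of_nonneg_left h3 (pow_nonneg ht _)
    _ ≤ ns t (L + 1 + m) (mk j A) := h4
    _ = ns t (L + (m + 1)) (mk j A) := by rw [show L + 1 + m = L + (m + 1) by ring]

/-- `er` at step `k` depends only on the first `k` families -/
lemma er_congr (Q : Finset (Fin n)) {C C' : ℕ → Fam n} (k : ℕ) (h : ∀ l < k, C l = C' l) :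
    er Q C k = er Q C' k := by
  induction k with
  | zero => rfl
  | succ k ih =>
    have h1 := ih fun l hl => h l (by omega)
    have h2 := h k (by omega)
    have h3 : pv C k = pv C' k := by
      cases k with
      | zero => rfl
      | succ k => exact h k (by omega)
    rw [er_succ, er_succ, h1, h2, h3]

/-- the error of the path formula, with the norms of the first families only -/
lemma er_norm' {t : ℝ} (ht : 0 < t) (ht1 : t ≤ 1) {Q : Finset (Fin n)} (hQ : Q.card ≤ 5)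
    {C : ℕ → Fam n} {B : ℝ} (hB0 : 0 ≤ B) {L k M : ℕ} (hk : M + k ≤ L)
    (hB : ∀ l ≤ k, ns t L (C l) ≤ B ^ 2) :
    Real.sqrt t ^ k * Real.sqrt (ns t M (er Q C k)) ≤ k * eta n L * B := by
  set C' : ℕ → Fam n := fun l => if l ≤ k then C l else 0 with hC'
  have h1 : er Q C k = er Q C' k := by
    refine er_congr Q k fun l hl => ?_
    simp only [hC']
    rw [if_pos (by omega)]
  rw [h1]
  refine er_norm ht ht1 hQ hB0 ?_ k M hk
  intro l _
  simp only [hC']
  split_ifs with h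
  · exact hB l h
  · rw [ns_zero]
    positivity

lemma nd_nonneg {t : ℝ} (ht : 0 ≤ t) (L : ℕ) (A : Fam n) (j : Fin n) : 0 ≤ nd t L A j :=
  Finset.sum_nonneg fun α _ => mul_nonneg (wt_nonneg ht α) (sq_nonneg _)

lemma nd_le_nv {t : ℝ} (ht : 0 ≤ t) (L : ℕ) (A : Fam n) (j : Fin n) : nd t L A j ≤ nv t L A j :=
  sum_le_sum_of_subset_of_nonneg (filter_subset _ _) fun α _ _ =>
    mul_nonneg (wt_nonneg ht α) (sq_nonneg _)

lemma sqrt_nd_add {t : ℝ} (ht : 0 ≤ t) (L : ℕ) (A B : Fam n) (j : Fin n) :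
    Real.sqrt (nd t L (A + B) j) ≤ Real.sqrt (nd t L A j) + Real.sqrt (nd t L B j) :=
  wtri ((ML n L).filter fun α => deg α j ≠ 0) (fun α _ => wt_nonneg ht α) (A j) (B j)

lemma fin_alg {s X Y e B S N T : ℝ} (hX : 0 ≤ X) (hY : 0 ≤ Y) (hs : 0 ≤ s) (hst : s ^ 2 = T)
    (hB : B ^ 2 = S) (h : s * Real.sqrt X ≤ s * Real.sqrt Y + e * B) (h1 : T * Y ≤ N) :
    T * X ≤ 2 * N + 2 * e ^ 2 * S := by
  have hx0 : 0 ≤ s * Real.sqrt X := mul_nonneg hs (Real.sqrt_nonneg _)
  have h2 : (s * Real.sqrt X) ^ 2 ≤ (s * Real.sqrt Y + e * B) ^ 2 := pow_le_pow_left₀ hx0 h 2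
  have h3 : (s * Real.sqrt X) ^ 2 = T * X := by rw [mul_pow, hst, Real.sq_sqrt hX]
  have h4 : (s * Real.sqrt Y) ^ 2 = T * Y := by rw [mul_pow, hst, Real.sq_sqrt hY]
  have h5 : (e * B) ^ 2 = e ^ 2 * S := by rw [mul_pow, hB]
  have h6 : (s * Real.sqrt Y + e * B) ^ 2 ≤ 2 * (s * Real.sqrt Y) ^ 2 + 2 * (e * B) ^ 2 := by
    nlinarith [sq_nonneg (s * Real.sqrt Y - e * B)]
  rw [h4, h5] at h6
  rw [h3] at h2
  linarith

/-- the path formula for the part with an edge at `j` -/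
theorem nd_path {t : ℝ} (ht : 0 < t) (ht1 : t ≤ 1) (j : Fin n) {C : ℕ → Fam n}
    (hC : ∀ k, C (k + 1) = up (C k) + dn (C k) - pv C k) (L k : ℕ) (hk : 1 ≤ k) :
    t ^ k * nd t L (C k) j ≤ 2 * ns t (L + k) (mk j (C 0)) +
      2 * ep n (L + k) k ^ 2 * ∑ l ∈ range (k + 1), ns t (L + k) (C l) := by
  set S : ℝ := ∑ l ∈ range (k + 1), ns t (L + k) (C l) with hS
  have hS0 : 0 ≤ S := Finset.sum_nonneg fun l _ => ns_nonneg ht.le _ _
  set B : ℝ := Real.sqrt S with hB
  have hB0 : 0 ≤ B := Real.sqrt_nonneg _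
  have hBS : B ^ 2 = S := Real.sq_sqrt hS0
  have hl : ∀ l ≤ k, ns t (L + k) (C l) ≤ B ^ 2 := by
    intro l hl
    rw [hBS]
    exact Finset.single_le_sum (f := fun l => ns t (L + k) (C l))
      (fun l _ => ns_nonneg ht.le _ _) (mem_range.2 (by omega))
  have hs0 : 0 ≤ Real.sqrt t := Real.sqrt_nonneg t
  have hs1 : Real.sqrt t ≤ 1 := Real.sqrt_le_one.2 ht1
  have hk0 : 0 ≤ Real.sqrt t ^ k := pow_nonneg hs0 k
  have hk1 : Real.sqrt t ^ k ≤ 1 := pow_le_one₀ hs0 hs1
  have hst : (Real.sqrt t ^ k) ^ 2 = t ^ k := by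
    rw [← pow_mul, mul_comm k 2, pow_mul, Real.sq_sqrt ht.le]
  -- the error terms
  have e1 : Real.sqrt t ^ k * Real.sqrt (nd t L (-er {j} C k) j) ≤ k * eta n (L + k) * B := by
    refine le_trans ?_ (er_norm' ht ht1 (Q := {j}) (by rw [card_singleton]; omega) hB0
      (L := L + k) (k := k) (M := L) le_rfl hl)
    refine mul_le_mul_of_nonneg_left (Real.sqrt_le_sqrt ?_) hk0
    refine (nd_le_nv ht.le L _ j).trans ?_
    rw [nv_neg]
    exact nv_le_ns ht.le L _ j
  have e2 : Real.sqrt t ^ k * Real.sqrt (nd t L (dn (pv C k)) j) ≤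
      Real.sqrt ((L + k : ℕ) / n) * B := by
    have h4 : nd t L (dn (pv C k)) j ≤ (((L + k : ℕ) : ℝ) / n) * B ^ 2 := by
      have h5 : ns t L (pv C k) ≤ B ^ 2 := by
        refine (ns_mono ht.le (Nat.le_add_right L k) _).trans ?_
        cases k with
        | zero => omega
        | succ m => exact hl m (by omega)
      calc nd t L (dn (pv C k)) j ≤ nv t L (dn (pv C k)) j := nd_le_nv ht.le _ _ _
        _ ≤ (t * L / n : ℝ) * ns t L (pv C k) := dn_norm ht.le L _ j
        _ ≤ (((L + k : ℕ) : ℝ) / n) * B ^ 2 := by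
            have h6 : (t * L / n : ℝ) ≤ ((L + k : ℕ) : ℝ) / n := by
              have h7 : t * L ≤ ((L + k : ℕ) : ℝ) := by
                push_cast
                have : (0 : ℝ) ≤ L := Nat.cast_nonneg L
                have : (0 : ℝ) ≤ k := Nat.cast_nonneg k
                nlinarith
              exact div_le_div_of_nonneg_right h7 (Nat.cast_nonneg n)
            exact mul_le_mul h6 h5 (ns_nonneg ht.le _ _) (by positivity)
    calc Real.sqrt t ^ k * Real.sqrt (nd t L (dn (pv C k)) j)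
        ≤ 1 * Real.sqrt (nd t L (dn (pv C k)) j) :=
          mul_le_mul_of_nonneg_right hk1 (Real.sqrt_nonneg _)
      _ ≤ Real.sqrt ((((L + k : ℕ) : ℝ) / n) * B ^ 2) := by
          rw [one_mul]
          exact Real.sqrt_le_sqrt h4
      _ = Real.sqrt ((L + k : ℕ) / n) * B := by
          rw [Real.sqrt_mul (by positivity), Real.sqrt_sq hB0]
  have e3 : Real.sqrt (nd t L (C k) j) ≤ Real.sqrt (nd t L (fk {j} (C 0) k) j) +
      Real.sqrt (nd t L (dn (pv C k)) j) + Real.sqrt (nd t L (-er {j} C k) j) := by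
    have h1 := path_formula {j} C hC k
    have h2 : C k = fk {j} (C 0) k + dn (pv C k) + -er {j} C k := by
      rw [h1]
      abel
    calc Real.sqrt (nd t L (C k) j)
        = Real.sqrt (nd t L (fk {j} (C 0) k + dn (pv C k) + -er {j} C k) j) := by rw [← h2]
      _ ≤ Real.sqrt (nd t L (fk {j} (C 0) k + dn (pv C k)) j) +
          Real.sqrt (nd t L (-er {j} C k) j) := sqrt_nd_add ht.le L _ _ j
      _ ≤ _ := by
          have := sqrt_nd_add ht.le L (fk {j} (C 0) k) (dn (pv C k)) j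
          linarith
  have e4 : Real.sqrt t ^ k * Real.sqrt (nd t L (C k) j) ≤
      Real.sqrt t ^ k * Real.sqrt (nd t L (fk {j} (C 0) k) j) + ep n (L + k) k * B := by
    have h1 := mul_le_mul_of_nonneg_left e3 hk0
    unfold ep
    linarith
  exact fin_alg (nd_nonneg ht.le L (C k) j) (nd_nonneg ht.le L (fk {j} (C 0) k) j) hk0 hst hBS
    e4 (nd_fk ht.le j (C 0) k hk L)

/-- parity: at least three edges at `j` -/
lemma ns_mk_par {t : ℝ} (ht : 0 ≤ t) (L : ℕ) {j : Fin n} {A : Fam n} (hA : Par j A) :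
    ns t L (mk j A) ≤ ∑ v, ∑ α ∈ (ML n L).filter (fun α => 3 ≤ deg α j), wt t α * A v α ^ 2 := by
  refine Finset.sum_le_sum fun v _ => ?_
  unfold nv
  rw [Finset.sum_filter]
  refine Finset.sum_le_sum fun α _ => ?_
  have h0 : 0 ≤ wt t α * A v α ^ 2 := mul_nonneg (wt_nonneg ht α) (sq_nonneg _)
  unfold mk
  by_cases h : v ≠ j ∧ 2 ≤ deg α j
  · rw [if_pos h]
    by_cases h3 : 3 ≤ deg α j
    · rw [if_pos h3]
    · rw [if_neg h3]
      by_cases h4 : A v α = 0
      · rw [h4]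
        simp
      · exfalso
        have h5 := hA v α h4 j
        rw [if_neg (fun h' => h.1 h'.symm), if_pos rfl] at h5
        have h6 : deg α j = 2 := by omega
        rw [h6] at h5
        revert h5
        decide
  · rw [if_neg h]
    simp only [ne_eq, OfNat.ofNat_ne_zero, not_false_eq_true, zero_pow, mul_zero]
    split_ifs
    · exact h0
    · exact le_rfl

end Vale.Agent.P146.R3.H316
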