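import Vale.Agent.P146.R3.H597.Cut
import Vale.Agent.P146.R3.H316.Mask

/-!
# P146 R3 (helper316): the part with edges at `j` (R1d)
-/

open MeasureTheory ProbabilityTheory Finset Filter Topology

namespace Vale.Agent.P146.R3.H316

open Vale.Agent.P146 Vale.Agent.P146.Ub.Cv Vale.Agent.P146.H605 Vale.Agent.P146.H453
  Vale.Agent.P146.R2

lemma CC_symm {n : ℕ} (β : ℝ) (j v : Fin n) (α : MI n) : CC β j 0 v α = CC β v 0 j α := by
  rw [CC_zero, CC_zero]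
  simp only
  rw [f2_symm]

lemma three_CC {n : ℕ} (β : ℝ) {t : ℝ} (ht : 0 ≤ t) (ht1 : t ≤ 1) (L : ℕ) (j v : Fin n) :
    n3 t L (CC β j 0) v ≤ ∑ e₁ ∈ st v, ∑ e₂ ∈ st v, ∑ e₃ ∈ st v,
      nv t L (GG β j v e₁ e₂ e₃ 0) v := by
  have h1 := three ht L v (CC β j 0)
  have h2 : ∀ e₁ e₂ e₃ : Pair n, ∑ α ∈ ML n L, H453.wt t α *
      CC β j 0 v (α + un e₁ + un e₂ + un e₃) ^ 2 = nv t L (GG β j v e₁ e₂ e₃ 0) v := by
    intro e₁ e₂ e₃
    rw [GG_zero]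
    rfl
  simp only [h2] at h1
  have h3 : 0 ≤ ∑ e₁ ∈ st v, ∑ e₂ ∈ st v, ∑ e₃ ∈ st v, nv t L (GG β j v e₁ e₂ e₃ 0) v :=
    Finset.sum_nonneg fun _ _ => Finset.sum_nonneg fun _ _ => Finset.sum_nonneg fun _ _ =>
      nv_nonneg ht _ _ _
  have h4 : t ^ 3 / 6 ≤ 1 := by
    have := pow_le_one₀ (n := 3) ht ht1
    linarith
  calc n3 t L (CC β j 0) v ≤ t ^ 3 / 6 * ∑ e₁ ∈ st v, ∑ e₂ ∈ st v, ∑ e₃ ∈ st v,
        nv t L (GG β j v e₁ e₂ e₃ 0) v := h1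
    _ ≤ 1 * ∑ e₁ ∈ st v, ∑ e₂ ∈ st v, ∑ e₃ ∈ st v, nv t L (GG β j v e₁ e₂ e₃ 0) v :=
        mul_le_mul_of_nonneg_right h4 h3
    _ = _ := one_mul _

/-- **R1d.** The part of `nv` with edges at `j`. -/
theorem stD : StD := by
  intro n β t L k ht ht1 hn hk
  have h1 : ∀ j : Fin n, t ^ k * nvD t L (CC β j k) j ≤
      2 * ns t (L + k) (mk j (CC β j 0)) +
      2 * ep n (L + k) k ^ 2 * ∑ l ∈ range (k + 1), ns t (L + k) (CC β j l) := fun j =>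
    nd_path ht ht1 j (CC_rec β j) L k hk
  have h2 : ∑ j : Fin n, ns t (L + k) (mk j (CC β j 0)) ≤
      ∑ j : Fin n, ∑ v, ∑ e₁ ∈ st v, ∑ e₂ ∈ st v, ∑ e₃ ∈ st v,
        nv t (L + k) (GG β j v e₁ e₂ e₃ 0) v := by
    calc ∑ j : Fin n, ns t (L + k) (mk j (CC β j 0))
        ≤ ∑ j : Fin n, ∑ v, ∑ α ∈ (ML n (L + k)).filter (fun α => 3 ≤ deg α j),
            H453.wt t α * CC β j 0 v α ^ 2 :=
          Finset.sum_le_sum fun j _ => ns_mk_par ht.le _ (par_CC β j)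
      _ = ∑ j : Fin n, ∑ v, n3 t (L + k) (CC β v 0) j := by
          refine Finset.sum_congr rfl fun j _ => Finset.sum_congr rfl fun v _ => ?_
          unfold n3
          refine Finset.sum_congr rfl fun α _ => ?_
          rw [CC_symm β j v α]
      _ = ∑ v, ∑ j : Fin n, n3 t (L + k) (CC β v 0) j := Finset.sum_comm
      _ ≤ _ := Finset.sum_le_sum fun j _ => Finset.sum_le_sum fun v _ =>
          three_CC β ht.le ht1 _ j v
  have hn0 : (0 : ℝ) ≤ (n : ℝ)⁻¹ := by positivity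
  have h3 := Finset.sum_le_sum fun (j : Fin n) (_ : j ∈ univ) => h1 j
  rw [Finset.sum_add_distrib, ← Finset.mul_sum, ← Finset.mul_sum, ← Finset.mul_sum,
    Finset.sum_comm (s := univ) (t := range (k + 1))] at h3
  have h4 := mul_le_mul_of_nonneg_left h3 hn0
  have h5 := mul_le_mul_of_nonneg_left h2 hn0
  rw [← Finset.mul_sum]
  calc t ^ k * ((n : ℝ)⁻¹ * ∑ j : Fin n, nvD t L (CC β j k) j)
      = (n : ℝ)⁻¹ * (t ^ k * ∑ j : Fin n, nvD t L (CC β j k) j) := by ring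
    _ ≤ (n : ℝ)⁻¹ * (2 * ∑ j : Fin n, ns t (L + k) (mk j (CC β j 0)) +
        2 * ep n (L + k) k ^ 2 * ∑ l ∈ range (k + 1), ∑ j : Fin n, ns t (L + k) (CC β j l)) := h4
    _ = 2 * ((n : ℝ)⁻¹ * ∑ j : Fin n, ns t (L + k) (mk j (CC β j 0))) +
        2 * ep n (L + k) k ^ 2 *
          ((n : ℝ)⁻¹ * ∑ l ∈ range (k + 1), ∑ j : Fin n, ns t (L + k) (CC β j l)) := by ring
    _ ≤ _ := by linarith

end Vale.Agent.P146.R3.H316
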