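import Mathlib.Analysis.SpecialFunctions.Pow.Continuity
import Mathlib.Analysis.Real.Pi.Bounds

/-!
# P146 R3 (helper316): the algebra of the universal relation
-/

open Filter Topology

namespace Vale.Agent.P146.R3.H316

/-- `κ⁶ = (9/80) b⁶/A` gives `π b²/(2κ²) = (π/2) (80A/9)^(1/3)` -/
lemma kap_eq {b κ A : ℝ} (hb : 0 < b) (hκ : 0 < κ) (hA : 0 < A)
    (h : κ ^ 6 = 9 / 80 * b ^ 6 / A) :
    Real.pi * b ^ 2 / (2 * κ ^ 2) = Real.pi / 2 * (80 * A / 9) ^ (1 / 3 : ℝ) := by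
  have h1 : (b ^ 2 / κ ^ 2) ^ 3 = 80 * A / 9 := by
    have h2 : (b ^ 2 / κ ^ 2) ^ 3 = b ^ 6 / κ ^ 6 := by
      rw [div_pow, ← pow_mul, ← pow_mul]
    rw [h2, h]
    field_simp
  have h3 : (80 * A / 9) ^ (1 / 3 : ℝ) = b ^ 2 / κ ^ 2 := by
    rw [← h1, ← Real.rpow_natCast, ← Real.rpow_mul (by positivity)]
    norm_num
  rw [h3]
  field_simp

/-- the same for `π/κ²` -/
lemma kap_eq' {b κ A : ℝ} (hb : 0 < b) (hκ : 0 < κ) (hA : 0 < A)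
    (h : κ ^ 6 = 9 / 80 * b ^ 6 / A) :
    Real.pi / κ ^ 2 = Real.pi / b ^ 2 * (80 * A / 9) ^ (1 / 3 : ℝ) := by
  have h1 := kap_eq hb hκ hA h
  have h2 : Real.pi / κ ^ 2 = 2 / b ^ 2 * (Real.pi * b ^ 2 / (2 * κ ^ 2)) := by
    field_simp
  rw [h2, h1]
  ring

/-- the value at the critical temperature is `π/8` -/
lemma lim_pi8 {Λ : ℝ → ℝ} (h : Tendsto Λ (𝓝[>] 1) (𝓝 (9 / 5120))) :
    Tendsto (fun b => Real.pi / 2 * (80 * Λ b / 9) ^ (1 / 3 : ℝ)) (𝓝[>] 1)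
      (𝓝 (Real.pi / 8)) := by
  have h1 : Tendsto (fun b => 80 * Λ b / 9) (𝓝[>] 1) (𝓝 (1 / 64)) := by
    have := (h.const_mul 80).div_const 9
    convert this using 2
    norm_num
  have h2 := (h1.rpow_const (p := (1 / 3 : ℝ)) (Or.inl (by norm_num))).const_mul (Real.pi / 2)
  convert h2 using 2
  have h3 : (1 / 64 : ℝ) ^ (1 / 3 : ℝ) = 1 / 4 := by
    rw [show (1 / 64 : ℝ) = (1 / 4) ^ (3 : ℕ) by norm_num, ← Real.rpow_natCast,
      ← Real.rpow_mul (by norm_num)]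
    norm_num
  rw [h3]
  ring

end Vale.Agent.P146.R3.H316
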