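import Vale.Agent.P146.Bd5.B2
import Vale.Agent.P146.Bdl.B40
import Vale.Agent.P146.Bd4.B5
import Vale.Agent.P146.Bd3.B6

/-!
# P146 R3 (helper316): the constant `Λ(β)` of `V(x) - V(0) ≈ Λ x⁵` is the constant of the
exponential moments of the free energy
-/

open MeasureTheory ProbabilityTheory Filter Topology

namespace Vale.Agent.P146.R3.H316

open Vale.Agent.P146

/-- One function `Λ` for the Parisi functional and for the exponential moments of `F_n`. -/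
theorem lam_rel : ∃ Λ : ℝ → ℝ, Tendsto Λ (𝓝[>] 1) (𝓝 (9 / 5120)) ∧
    ∀ β : ℝ, 1 < β → 0 < Λ β ∧
      Tendsto (fun x => (Sh.Vx β x - Sh.P0 β) / x ^ 5) (𝓝[>] 0) (𝓝 (Λ β)) ∧
      ∃ p : ℝ,
        Tendsto (fun n : ℕ => (∫ g, freeEnergy n β g ∂(disorder n)) / n) atTop (𝓝 p) ∧
        ∀ ε : ℝ, 0 < ε → ∃ δ : ℝ, 0 < δ ∧ ∀ᶠ n : ℕ in atTop,
          ∀ x : ℝ, (n : ℝ) ^ (-(1 / 36) : ℝ) ≤ x → x ≤ δ →
            |Real.log (∫ g, Real.exp (x * (freeEnergy n β g - n * p)) ∂(disorder n)) -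
              Λ β * n * x ^ 6| ≤ ε * n * x ^ 6 := by
  obtain ⟨Λ, hΛ, hΛβ⟩ := Sh.lim_Lam
  refine ⟨Λ, hΛ, fun β hβ => ?_⟩
  obtain ⟨hΛ0, hlimΛ⟩ := hΛβ β hβ
  obtain ⟨C, a, A, c, x₀, ha, hA, hc, hx₀, hx₀1, hlim, hall, -⟩ :=
    Ld.two_sided hβ (Lb.l1 hβ)
  have hmom := fun (ε : ℝ) (hε : 0 < ε) => Sh.rt_sharp_moment hβ hΛ0 hlimΛ hε
  refine ⟨hΛ0, hlimΛ, Sx.pv β, hlim, fun ε hε => ?_⟩
  obtain ⟨x₁, hx₁, N₁, h1⟩ := hmom ε hε
  refine ⟨x₁, hx₁, ?_⟩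
  filter_upwards [eventually_ge_atTop N₁] with n hn
  intro x hx hxx
  have h3 := h1 n hn x hx hxx
  have hint := Sx.integrable_exp n β x
  have hpos : 0 < ∫ g, Real.exp (x * freeEnergy n β g) ∂(disorder n) :=
    mgf_pos (μ := disorder n) (X := freeEnergy n β) hint
  have hcen : ∫ g, Real.exp (x * (freeEnergy n β g - n * Sx.pv β)) ∂(disorder n) =
      Real.exp (-(x * (n * Sx.pv β))) * ∫ g, Real.exp (x * freeEnergy n β g) ∂(disorder n) := by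
    rw [← integral_const_mul]
    congr 1
    funext g
    rw [← Real.exp_add]
    congr 1
    ring
  rw [hcen, Real.log_mul (Real.exp_pos _).ne' hpos.ne', Real.log_exp]
  have e : -(x * (n * Sx.pv β)) + Real.log (∫ g, Real.exp (x * freeEnergy n β g) ∂(disorder n)) =
      Real.log (∫ g, Real.exp (x * freeEnergy n β g) ∂(disorder n)) - x * (n * Sx.pv β) := by
    ring
  rw [e]
  exact h3

end Vale.Agent.P146.R3.H316
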