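import Vale.Agent.P146.R3.H732.LB1

set_option linter.all false

/-!
# P146, explicit lower exponent: the exact integration by parts for `T_w`, with the second moment
of the resolvent in place of its operator norm
-/

open MeasureTheory ProbabilityTheory Matrix Filter Topology

namespace Vale.Agent.P146.R3.H316.Tw2

open Vale.Agent.P157 (spin)
open Vale.Agent.P157.Lv
open Vale.Agent.P157.Lv.Sy
open Vale.Agent.P157.Par (Path Exponents topN lw spinPart)
open Vale.Agent.P146.Sk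
open Vale.Agent.P146.Pw2
open Vale.Agent.P146.Sk.Gen (GI gz gl r0 gS gF gOb gIsOpt GD gV)
open Vale.Agent.P146.R3.H732.LB (P2 P2_le P2_top)

variable {N K : ℕ} {m : ℕ → ℝ} {β y a b : ℝ} {s : ℕ → ℝ}

/-- the inner product of two symmetric products -/
lemma sum_Me_Me (hN : 0 < N) (u v p q : Fin N → ℝ) :
    ∑ e : Ix N, Me u v e * Me p q e =
      1 / N * ((u ⬝ᵥ p) * (v ⬝ᵥ q) + (u ⬝ᵥ q) * (v ⬝ᵥ p)) := by
  have hN' : (0 : ℝ) < N := by exact_mod_cast hN
  rw [Fintype.sum_prod_type]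
  have h1 : ∀ a b : Fin N, Me u v (a, b) * Me p q (a, b) =
      1 / (2 * N) * ((u a * v b) * (p a * q b)) + 1 / (2 * N) * ((u a * v b) * (q a * p b)) +
      (1 / (2 * N) * ((v a * u b) * (p a * q b)) + 1 / (2 * N) * ((v a * u b) * (q a * p b))) := by
    intro a b
    simp only [Me]
    rw [div_mul_div_comm, sqrt_mul_sqrt_two hN]
    field_simp
  simp only [h1, Finset.sum_add_distrib, ← Finset.mul_sum, sum_prod_dot]
  field_simp
  ring

section ibp

variable {E : (Ix N → ℝ) → (Fin N → Bool) → ℝ}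
  {D B : Ix N → (Ix N → ℝ) → (Fin N → Bool) → ℝ} {c w r : ℝ}

/-- one term of the integration by parts -/
lemma tw_term' (hN : 0 < N) (h : GD K m E D (spin (N := N)))
    (hB : ∀ e z x, D e z x = c * (spin x e.1 * spin x e.2 / √(2 * (N : ℝ))) + B e z x)
    (hBe : ∀ e x, EG (fun z => B e z x)) (hBw : ∀ z x, ∑ e, B e z x ^ 2 ≤ N * w) {i : ℕ}
    (hr : |(gS K m E spin s).Ex (fun z x => ∑ e : Ix N, Me (spin x) (spin x) e *
      Rec.Ti (gS K m E spin s) i (fun z x => B e (r0 z) x) z x)| ≤ N * r) :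
    |(gS K m E spin s).Ex (fun z x => ∑ e : Ix N, Me (spin x) (spin x) e *
      Rec.Ti (gS K m E spin s) i (Gen.gD D spin s (Sum.inl e)) z x) -
      N * (c * P2 (gS K m E spin s) i)| ≤ N * r := by
  have hN' : (0 : ℝ) < N := by exact_mod_cast hN
  have hC := ctx_q (s := s) hN h hB hBe hBw
  set S := gS K m E spin s with hSdef
  have hS : S.Reg := Gen.gS_reg h s
  have nM : ∀ e : Ix N, Nh (ι := GI (Ix N) N K)
      (fun _ x => Me (spin (N := N) x) (spin x) e) := fun e => Nh.snd fun x =>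
        Me (spin (N := N) x) (spin x) e
  have nP : ∀ e : Ix N, Nh (ι := GI (Ix N) N K)
      (fun _ x => spin (N := N) x e.1 * spin x e.2 / √(2 * (N : ℝ))) := fun e =>
    Nh.snd fun x => spin (N := N) x e.1 * spin x e.2 / √(2 * (N : ℝ))
  have nB : ∀ e : Ix N, Nh (ι := GI (Ix N) N K) (fun z x => B e (r0 z) x) := hC.nB
  have hD : ∀ e : Ix N, Gen.gD D spin s (Sum.inl e : GI (Ix N) N K) = fun z x =>
      c * (fun (_ : GI (Ix N) N K → ℝ) (x : Fin N → Bool) =>
        spin x e.1 * spin x e.2 / √(2 * (N : ℝ))) z x + B e (r0 z) x := by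
    intro e
    funext z x
    exact hC.dB e z x
  have e1 : (fun z x => ∑ e : Ix N, Me (spin x) (spin x) e *
      Rec.Ti S i (Gen.gD D spin s (Sum.inl e)) z x) = fun z x =>
      c * ∑ e : Ix N, Me (spin x) (spin x) e *
        Rec.Ti S i (fun _ x => spin x e.1 * spin x e.2 / √(2 * (N : ℝ))) z x +
      ∑ e : Ix N, Me (spin x) (spin x) e * Rec.Ti S i (fun z x => B e (r0 z) x) z x := by
    funext z x
    rw [Finset.mul_sum, ← Finset.sum_add_distrib]
    refine Finset.sum_congr rfl fun e _ => ?_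
    rw [hD e, Rec.Ti_add hS i (Nh.const_mul c (nP e)) (nB e), Rec.Ti_const_mul]
    ring
  have n1 : Nh (fun (z : GI (Ix N) N K → ℝ) x => ∑ e : Ix N, Me (spin x) (spin x) e *
        Rec.Ti S i (fun _ x => spin x e.1 * spin x e.2 / √(2 * (N : ℝ))) z x) :=
    Nh.sum _ fun e _ => Nh.mul (nM e) (Rec.nh_Ti hS i (nP e))
  have n2 : Nh (fun (z : GI (Ix N) N K → ℝ) x => ∑ e : Ix N, Me (spin x) (spin x) e *
        Rec.Ti S i (fun z x => B e (r0 z) x) z x) :=
    Nh.sum _ fun e _ => Nh.mul (nM e) (Rec.nh_Ti hS i (nB e))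
  rw [e1, hS.Ex_add (Nh.const_mul c n1) n2, Sy.Ex_const_mul]
  -- the main part
  have hmain := Rec.LL_main hC (A := fun _ => (1 : Matrix (Fin N) (Fin N) ℝ)) (EGM.const _)
    i (S.K + 1) (S.K + 1)
  have e2 : ∀ (z : GI (Ix N) N K → ℝ) (x : Fin N → Bool),
      Rec.yv S spin (S.K + 1) z x = spin x := fun z x => Rec.yv_gt (by omega) z x
  simp only [e2, one_mulVec] at hmain
  rw [hmain]
  have e3 : Rec.PE S i (fun z x x' => (1 / (N : ℝ) * (spin x ⬝ᵥ spin x')) *
      (1 / (N : ℝ) * (spin x ⬝ᵥ spin x'))) = P2 S i := by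
    unfold P2
    congr 1
    funext z x x'
    unfold Rov
    simp only [dotProduct]
    ring
  rw [e3]
  have e4 : c * ((N : ℝ) * P2 S i) + S.Ex (fun z x => ∑ e : Ix N, Me (spin x) (spin x) e *
      Rec.Ti S i (fun z x => B e (r0 z) x) z x) - N * (c * P2 S i) =
      S.Ex (fun z x => ∑ e : Ix N, Me (spin x) (spin x) e *
      Rec.Ti S i (fun z x => B e (r0 z) x) z x) := by ring
  rw [e4]
  exact hr

/-- the exact integration by parts -/
theorem tw_ex' (hN : 0 < N) (h : GD K m E D (spin (N := N)))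
    (hB : ∀ e z x, D e z x = c * (spin x e.1 * spin x e.2 / √(2 * (N : ℝ))) + B e z x)
    (hBe : ∀ e x, EG (fun z => B e z x)) (hBw : ∀ z x, ∑ e, B e z x ^ 2 ≤ N * w)
    (hr : ∀ i, |(gS K m E spin s).Ex (fun z x => ∑ e : Ix N, Me (spin x) (spin x) e *
      Rec.Ti (gS K m E spin s) i (fun z x => B e (r0 z) x) z x)| ≤ N * r) :
    |Tw (gS K m E spin s) - c * (1 - ∑ l ∈ Finset.range (K + 1), (m (l + 1) - m l) *
      (gS K m E spin s).pairEx l (fun x x' => Rov spin x x' ^ 2))| ≤ 2 * r := by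
  have hN' : (0 : ℝ) < N := by exact_mod_cast hN
  have hC := ctx_q (s := s) hN h hB hBe hBw
  have ht := fun i => tw_term' (s := s) hN h hB hBe hBw (hr i)
  set S := gS K m E spin s with hSdef
  have hS : S.Reg := Gen.gS_reg h s
  have hSK : S.K = K := rfl
  have hSp : ∀ l, S.p l = m (l + 1) - m l := fun l => rfl
  have hm' := h.hm
  have hp : ∀ l ∈ Finset.range (K + 1), 0 ≤ m (l + 1) - m l := fun l hl => by
    have := hm'.2.2 l (Nat.lt_succ_iff.1 (Finset.mem_range.1 hl))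
    linarith
  have hp1 : ∑ l ∈ Finset.range (K + 1), (m (l + 1) - m l) = 1 := by
    rw [Finset.sum_range_sub, hm'.1, hm'.2.1, sub_zero]
  have h1 := Rec.ibp_sum hC (h := fun e _ x => Me (spin x) (spin x) e) (h' := fun _ _ _ => 0)
    (fun e x => PD.const _) (fun e => Nh.snd fun x => Me (spin (N := N) x) (spin x) e)
    (fun e => Nh.fst (EG.const 0))
  have e0 : S.Ex (fun z x => ∑ e : Ix N, z (Sum.inl e) * Me (spin x) (spin x) e) =
      N * Tw S := by
    unfold Tw
    have e1 : (fun (z : GI (Ix N) N K → ℝ) (x : Fin N → Bool) =>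
        ∑ e : Ix N, z (Sum.inl e) * Me (spin x) (spin x) e) =
        fun z x => qf (Wm N (r0 z)) (spin x) := by
      funext z x
      rw [qf_eq, ← sum_Me_z]
      rfl
    rw [e1]
    field_simp
  have e2 : S.Ex (fun (z : GI (Ix N) N K → ℝ) (x : Fin N → Bool) => ∑ e : Ix N, (0 : ℝ)) = 0 := by
    simp only [Finset.sum_const_zero]
    exact hS.Ex_const 0
  rw [e0, e2, zero_add, hSK] at h1
  simp only [hSp] at h1
  set A : ℕ → ℝ := fun i => S.Ex (fun z x => ∑ e : Ix N, Me (spin x) (spin x) e *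
    Rec.Ti S i (Gen.gD D spin s (Sum.inl e)) z x) with hA
  have h2 : N * Tw S = A (K + 1) - ∑ l ∈ Finset.range (K + 1), (m (l + 1) - m l) * A l := h1
  have hT : |A (K + 1) - N * (c * 1)| ≤ N * r := by
    have := ht (K + 1)
    have e3 : P2 S (K + 1) = 1 := P2_top hS hN
    rwa [e3] at this
  have hl : |∑ l ∈ Finset.range (K + 1), (m (l + 1) - m l) * A l -
      N * (c * ∑ l ∈ Finset.range (K + 1), (m (l + 1) - m l) *
        S.pairEx l (fun x x' => Rov spin x x' ^ 2))| ≤ N * r := by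
    have e4 : ∑ l ∈ Finset.range (K + 1), (m (l + 1) - m l) * A l -
      N * (c * ∑ l ∈ Finset.range (K + 1), (m (l + 1) - m l) *
        S.pairEx l (fun x x' => Rov spin x x' ^ 2)) = ∑ l ∈ Finset.range (K + 1),
        (m (l + 1) - m l) * (A l - N * (c * P2 S l)) := by
      rw [Finset.mul_sum, Finset.mul_sum, ← Finset.sum_sub_distrib]
      refine Finset.sum_congr rfl fun l hl => ?_
      have hl' : l ≤ S.K := Nat.lt_succ_iff.1 (Finset.mem_range.1 hl)
      rw [P2_le hS hl']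
      ring
    rw [e4]
    refine (Finset.abs_sum_le_sum_abs _ _).trans ?_
    have e5 : ∑ l ∈ Finset.range (K + 1), |(m (l + 1) - m l) * (A l - N * (c * P2 S l))| ≤
        ∑ l ∈ Finset.range (K + 1), (m (l + 1) - m l) * (N * r) := by
      refine Finset.sum_le_sum fun l hl => ?_
      rw [abs_mul, abs_of_nonneg (hp l hl)]
      exact mul_le_mul_of_nonneg_left (ht l) (hp l hl)
    refine e5.trans (le_of_eq ?_)
    rw [← Finset.sum_mul, hp1, one_mul]
  set Z : ℝ := ∑ l ∈ Finset.range (K + 1), (m (l + 1) - m l) *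
        S.pairEx l (fun x x' => Rov spin x x' ^ 2) with hZ
  have h3 : |(N : ℝ) * (Tw S - c * (1 - Z))| ≤ N * (2 * r) := by
    have e6 : (N : ℝ) * (Tw S - c * (1 - Z)) = (A (K + 1) - N * (c * 1)) -
        (∑ l ∈ Finset.range (K + 1), (m (l + 1) - m l) * A l - N * (c * Z)) := by
      rw [mul_sub, h2]
      ring
    rw [e6]
    refine (abs_sub _ _).trans ?_
    linarith only [hT, hl]
  rw [abs_mul, abs_of_pos hN'] at h3
  exact le_of_mul_le_mul_left h3 hN'

end ibp

/-- the resolvent, second moments -/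
lemma res_two (hy : 0 < y) {W : Matrix (Fin N) (Fin N) ℝ} (hW : Wᵀ = W) (x x' : Fin N → Bool) :
    |2 / N * ((spin x ⬝ᵥ (Ay y W *ᵥ spin x')) * (spin x ⬝ᵥ (By y W *ᵥ spin x')))| ≤
      1 / y * qf (By y W) (spin x) := by
  rcases Nat.eq_zero_or_pos N with hN | hN
  · subst hN
    simp only [Nat.cast_zero, div_zero, zero_mul, abs_zero]
    exact mul_nonneg (by positivity) (qf_by_nonneg hy hW _)
  have hN' : (0 : ℝ) < N := by exact_mod_cast hN
  have hA : spin x ⬝ᵥ (Ay y W *ᵥ spin x') = (Ay y W *ᵥ spin x) ⬝ᵥ spin x' := by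
    rw [Rec.symm_dot (ay_symm hy hW), dotProduct_comm]
  have hB : spin x ⬝ᵥ (By y W *ᵥ spin x') = (By y W *ᵥ spin x) ⬝ᵥ spin x' := by
    rw [Rec.symm_dot (by_symm hW), dotProduct_comm]
  have hn : nv (spin x') ^ 2 = (N : ℝ) := by rw [nv_sq, sum_spin_sq]
  have h1 : ((Ay y W *ᵥ spin x) ⬝ᵥ spin x') ^ 2 ≤ nv (Ay y W *ᵥ spin x) ^ 2 * N := by
    rw [← hn, ← mul_pow, ← sq_abs]
    exact pow_le_pow_left₀ (abs_nonneg _) (abs_dot_le _ _) 2
  have h2 : ((By y W *ᵥ spin x) ⬝ᵥ spin x') ^ 2 ≤ nv (By y W *ᵥ spin x) ^ 2 * N := by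
    rw [← hn, ← mul_pow, ← sq_abs]
    exact pow_le_pow_left₀ (abs_nonneg _) (abs_dot_le _ _) 2
  have h3 := dot_Hy (y := y) hW hy (spin x)
  have h4 : 1 / y * qf (By y W) (spin x) = nv (Ay y W *ᵥ spin x) ^ 2 +
      nv (By y W *ᵥ spin x) ^ 2 := by
    rw [qf_by, h3]
    field_simp
  rw [h4, hA, hB, abs_mul, abs_of_pos (by positivity : (0 : ℝ) < 2 / N), abs_mul]
  set P := (Ay y W *ᵥ spin x) ⬝ᵥ spin x' with hP
  set Q := (By y W *ᵥ spin x) ⬝ᵥ spin x' with hQ
  have h5 : 2 * (|P| * |Q|) ≤ P ^ 2 + Q ^ 2 := by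
    have := sq_nonneg (|P| - |Q|)
    have e1 := sq_abs P
    have e2 := sq_abs Q
    nlinarith
  rw [div_mul_eq_mul_div, div_le_iff₀ hN']
  linarith

/-- the part of the perturbation -/
lemma tw_b (hβ : 0 ≤ β) (hb : 0 ≤ b) (hy : 0 < y) (hN : 0 < N) (hm' : Exponents K m) (a : ℝ)
    (s : ℕ → ℝ) (i : ℕ) :
    |(sy N K m β y a b s).Ex (fun z x => ∑ e : Ix N, Me (spin x) (spin x) e *
      Rec.Ti (sy N K m β y a b s) i (fun z x => Gd.Bq N β y b e (r0 z) x) z x)| ≤
      N * (β * (b * (Tb y (sy N K m β y a b s) / y))) := by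
  have hN' : (0 : ℝ) < N := by exact_mod_cast hN
  have h := Gd.gd_Dq (K := K) hN hy hm' β a b
  set S := sy N K m β y a b s with hSdef
  have hS : S.Reg := Gen.gS_reg h s
  have egB : ∀ (e : Ix N) (x : Fin N → Bool), EG (fun g => Gd.Bq N β y b e g x) := fun e x =>
    EG.of_bdd (Gd.measurable_Bq hy β b e x) fun g => Gd.abs_Bq_le hN hy β b e g x
  have nB : ∀ e : Ix N, Nh (fun (z : GI (Ix N) N K → ℝ) x => Gd.Bq N β y b e (r0 z) x) :=
    fun e x => Gen.EG.r0 (egB e x)
  -- the two replica form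
  set F : (GI (Ix N) N K → ℝ) → (Fin N → Bool) → (Fin N → Bool) → ℝ := fun z x x' =>
    -(β * b) * (2 / N * ((spin x ⬝ᵥ (Ay y (Wm N (r0 z)) *ᵥ spin x')) *
      (spin x ⬝ᵥ (By y (Wm N (r0 z)) *ᵥ spin x')))) with hF
  have hsum : ∀ (z : GI (Ix N) N K → ℝ) (x x' : Fin N → Bool),
      ∑ e : Ix N, Me (spin x) (spin x) e * Gd.Bq N β y b e (r0 z) x' = F z x x' := by
    intro z x x'
    have e1 : ∀ e : Ix N, Me (spin x) (spin x) e * Gd.Bq N β y b e (r0 z) x' =
        -(β * b) * (Me (spin x) (spin x) e *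
          Me (Ay y (Wm N (r0 z)) *ᵥ spin x') (By y (Wm N (r0 z)) *ᵥ spin x') e) := by
      intro e
      unfold Gd.Bq
      ring
    simp only [e1, ← Finset.mul_sum]
    rw [sum_Me_Me hN, hF]
    simp only
    ring
  have hPE : S.Ex (fun z x => ∑ e : Ix N, Me (spin x) (spin x) e *
      Rec.Ti S i (fun z x => Gd.Bq N β y b e (r0 z) x) z x) = Rec.PE S i F := by
    unfold Rec.PE Rec.Ti
    split_ifs with hi
    · congr 1
      funext z x
      have h1 : ∀ e : Ix N, S.T i (fun z x => Gd.Bq N β y b e (r0 z) x) z =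
          ∑ x', S.pr i z x' * Gd.Bq N β y b e (r0 z) x' := by
        intro e
        refine Rec.T_pr' hS hi (fun x' => ?_) (nB e) z
        exact (Rec.dep_g (lev := S.lev) (g := fun e => (Sum.inl e : GI (Ix N) N K))
          (fun e => rfl) (fun g => Gd.Bq N β y b e g x')).mono (Nat.zero_le i)
      simp only [h1, Finset.mul_sum]
      rw [Finset.sum_comm]
      refine Finset.sum_congr rfl fun x' _ => ?_
      rw [← hsum z x x', Finset.mul_sum]
      exact Finset.sum_congr rfl fun e _ => by ring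
    · congr 1
      funext z x
      exact hsum z x x
  rw [hPE]
  -- the bound
  set G : (GI (Ix N) N K → ℝ) → (Fin N → Bool) → ℝ := fun z x =>
    β * b * (1 / y * qf (By y (Wm N (r0 z))) (spin x)) with hG
  have hFG : ∀ z x x', |F z x x'| ≤ G z x := by
    intro z x x'
    rw [hF, hG]
    simp only
    rw [abs_mul, abs_neg, abs_of_nonneg (mul_nonneg hβ hb)]
    exact mul_le_mul_of_nonneg_left (res_two hy (Wm_transpose _) x x') (mul_nonneg hβ hb)
  have nq : Nh (fun (z : GI (Ix N) N K → ℝ) (x : Fin N → Bool) =>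
      qf (By y (Wm N (r0 z))) (spin x)) := Gd.nh_qf (egm_by hy)
  have nG : Nh G := Nh.const_mul _ (Nh.const_mul _ nq)
  have nF : Rec.Nh2 F := by
    intro x'
    have e1 : (fun z x => F z x x') = fun z x => ∑ e : Ix N, Me (spin x) (spin x) e *
        Gd.Bq N β y b e (r0 z) x' := by
      funext z x
      exact (hsum z x x').symm
    rw [e1]
    exact Nh.sum _ fun e _ => Nh.mul (Nh.snd fun x => Me (spin (N := N) x) (spin x) e)
      (Nh.fst (Gen.EG.r0 (egB e x')))
  have h1 : Rec.PE S i F ≤ S.Ex G := by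
    rw [← Rec.PE_fst hS i G]
    exact Rec.PE_mono hS i nF (Rec.Nh2.of G nG) fun z x x' => (abs_le.1 (hFG z x x')).2
  have h2 : -S.Ex G ≤ Rec.PE S i F := by
    have e1 : -S.Ex G = Rec.PE S i (fun z x _ => -1 * G z x) := by
      rw [Rec.PE_fst hS i (fun z x => -1 * G z x), Sy.Ex_const_mul S (-1) G]
      ring
    rw [e1]
    refine Rec.PE_mono hS i (Rec.Nh2.of _ (Nh.const_mul _ nG)) nF fun z x x' => ?_
    have := (abs_le.1 (hFG z x x')).1
    linarith
  have h3 : S.Ex G = N * (β * (b * (Tb y S / y))) := by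
    rw [hG, Sy.Ex_const_mul, Sy.Ex_const_mul]
    unfold Tb
    field_simp
  rw [← h3]
  exact abs_le.2 ⟨h2, h1⟩

/-- **The exact integration by parts for the systems with the resolvent.** -/
theorem tw_sy2 {β : ℝ} (hβ : 0 ≤ β) (hy : 0 < y) (hN : 0 < N) (hm' : Exponents K m)
    (hb : 0 ≤ b) (a : ℝ) (s : ℕ → ℝ) :
    |Tw (sy N K m β y a b s) - β * a * (1 - ∑ l ∈ Finset.range (K + 1), (m (l + 1) - m l) *
      (sy N K m β y a b s).pairEx l (fun x x' => Rov spin x x' ^ 2))| ≤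
      2 * β * (b * Tb y (sy N K m β y a b s) / y) := by
  refine (tw_ex' (s := s) (c := β * a) (w := 2 * β ^ 2 * b ^ 2 / y ^ 4)
    (r := β * (b * (Tb y (sy N K m β y a b s) / y))) hN (Gd.gd_Dq hN hy hm' β a b)
    (fun _ _ _ => rfl)
    (fun e x => EG.of_bdd (Gd.measurable_Bq hy β b e x) fun g => Gd.abs_Bq_le hN hy β b e g x)
    (fun z x => Gd.sum_Bq_sq hN hy β b z x)
    (fun i => tw_b hβ hb hy hN hm' a s i)).trans (le_of_eq ?_)
  ring

end Vale.Agent.P146.R3.H316.Tw2
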