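import Vale.Agent.P146.R3.H316.Tw2

set_option linter.all false

/-!
# P146, explicit lower exponent: the exact value of `T_w`
-/

open MeasureTheory ProbabilityTheory Matrix Filter Topology

namespace Vale.Agent.P146.R3.H316.Tw2

open Vale.Agent.P157 (spin)
open Vale.Agent.P157.Lv
open Vale.Agent.P157.Lv.Sy
open Vale.Agent.P157.Par (Path Exponents topN lw spinPart)
open Vale.Agent.P146.Sk
open Vale.Agent.P146.Pw2
open Vale.Agent.P146.Sk.Gen (GI gz gl r0 gS gF gOb gIsOpt GD gV)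
open Vale.Agent.P146.R3.H732.LB (P2 P2_le P2_top)

variable {N K : ℕ} {m : ℕ → ℝ} {β y a b : ℝ} {s : ℕ → ℝ}

/-- the product of the two forms of the resolvent -/
noncomputable def HH (N K : ℕ) (y : ℝ) (z : GI (Ix N) N K → ℝ) (x x' : Fin N → Bool) : ℝ :=
  (spin x ⬝ᵥ (Ay y (Wm N (r0 z)) *ᵥ spin x')) * (spin x ⬝ᵥ (By y (Wm N (r0 z)) *ᵥ spin x'))

/-- the cross term -/
noncomputable def EE (y : ℝ) (m : ℕ → ℝ) (S : Sy (GI (Ix N) N K) (Fin N → Bool)) : ℝ :=
  1 / (N : ℝ) ^ 2 * (Rec.PE S (K + 1) (HH N K y) -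
    ∑ l ∈ Finset.range (K + 1), (m (l + 1) - m l) * Rec.PE S l (HH N K y))

lemma sum_Me_Bq (hN : 0 < N) (z : GI (Ix N) N K → ℝ) (x x' : Fin N → Bool) :
    ∑ e : Ix N, Me (spin x) (spin x) e * Gd.Bq N β y b e (r0 z) x' =
      -(2 * (β * b) / N) * HH N K y z x x' := by
  have e1 : ∀ e : Ix N, Me (spin x) (spin x) e * Gd.Bq N β y b e (r0 z) x' =
      -(β * b) * (Me (spin x) (spin x) e *
        Me (Ay y (Wm N (r0 z)) *ᵥ spin x') (By y (Wm N (r0 z)) *ᵥ spin x') e) := by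
    intro e
    unfold Gd.Bq
    ring
  simp only [e1, ← Finset.mul_sum]
  rw [sum_Me_Me hN]
  unfold HH
  ring

lemma eg_Bq (hN : 0 < N) (hy : 0 < y) (β b : ℝ) (e : Ix N) (x : Fin N → Bool) :
    EG (fun g => Gd.Bq N β y b e g x) :=
  EG.of_bdd (Gd.measurable_Bq hy β b e x) fun g => Gd.abs_Bq_le hN hy β b e g x

lemma nh2_HH (hy : 0 < y) : Rec.Nh2 (HH N K y) := by
  intro x'
  have hA : EGM (fun z : GI (Ix N) N K → ℝ => Ay y (Wm N (r0 z))) :=
    fun i j => Gen.EG.r0 (egm_ay hy i j)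
  have hB : EGM (fun z : GI (Ix N) N K → ℝ => By y (Wm N (r0 z))) :=
    fun i j => Gen.EG.r0 (egm_by hy i j)
  have hx : Rec.NhV (fun (_ : GI (Ix N) N K → ℝ) (_ : Fin N → Bool) => spin (N := N) x') :=
    fun a => Nh.snd fun _ => spin x' a
  exact Nh.mul (Rec.nhv_phi.dot (hx.mulVec hA)) (Rec.nhv_phi.dot (hx.mulVec hB))

/-- the part of the perturbation, exactly -/
lemma bpart (hy : 0 < y) (hN : 0 < N) (hm' : Exponents K m) (β a b : ℝ) (s : ℕ → ℝ) (i : ℕ) :
    (sy N K m β y a b s).Ex (fun z x => ∑ e : Ix N, Me (spin x) (spin x) e *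
      Rec.Ti (sy N K m β y a b s) i (fun z x => Gd.Bq N β y b e (r0 z) x) z x) =
      -(2 * (β * b) / N) * Rec.PE (sy N K m β y a b s) i (HH N K y) := by
  have h := Gd.gd_Dq (K := K) hN hy hm' β a b
  set S := sy N K m β y a b s with hSdef
  have hS : S.Reg := Gen.gS_reg h s
  have nB : ∀ e : Ix N, Nh (fun (z : GI (Ix N) N K → ℝ) x => Gd.Bq N β y b e (r0 z) x) :=
    fun e x => Gen.EG.r0 (eg_Bq hN hy β b e x)
  rw [← Rec.PE_const_mul]
  unfold Rec.PE Rec.Ti
  split_ifs with hi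
  · congr 1
    funext z x
    have h1 : ∀ e : Ix N, S.T i (fun z x => Gd.Bq N β y b e (r0 z) x) z =
        ∑ x', S.pr i z x' * Gd.Bq N β y b e (r0 z) x' := by
      intro e
      refine Rec.T_pr' hS hi (fun x' => ?_) (nB e) z
      exact (Rec.dep_g (lev := S.lev) (g := fun e => (Sum.inl e : GI (Ix N) N K))
        (fun e => rfl) (fun g => Gd.Bq N β y b e g x')).mono (Nat.zero_le i)
    simp only [h1, Finset.mul_sum]
    rw [Finset.sum_comm]
    refine Finset.sum_congr rfl fun x' _ => ?_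
    rw [← sum_Me_Bq hN z x x', Finset.mul_sum]
    exact Finset.sum_congr rfl fun e _ => by ring
  · congr 1
    funext z x
    exact sum_Me_Bq hN z x x

/-- one term, exactly -/
lemma tw_term_eq (hy : 0 < y) (hN : 0 < N) (hm' : Exponents K m) (β a b : ℝ) (s : ℕ → ℝ)
    (i : ℕ) :
    (sy N K m β y a b s).Ex (fun z x => ∑ e : Ix N, Me (spin x) (spin x) e *
      Rec.Ti (sy N K m β y a b s) i (Gen.gD (Gd.Dq N β y a b) spin s (Sum.inl e)) z x) =
      N * (β * a * P2 (sy N K m β y a b s) i) -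
        2 * (β * b) / N * Rec.PE (sy N K m β y a b s) i (HH N K y) := by
  have hN' : (0 : ℝ) < N := by exact_mod_cast hN
  have h := Gd.gd_Dq (K := K) hN hy hm' β a b
  have hC : Rec.Ctx (sy N K m β y a b s) (Gen.gD (Gd.Dq N β y a b) spin s)
      (fun e => (Sum.inl e : GI (Ix N) N K)) spin (β * a)
      (fun e z x => Gd.Bq N β y b e (r0 z) x) (fun _ => 2 * β ^ 2 * b ^ 2 / y ^ 4) :=
    ctx_q (s := s) (c := β * a) (w := 2 * β ^ 2 * b ^ 2 / y ^ 4) hN h
    (fun _ _ _ => rfl) (fun e x => eg_Bq hN hy β b e x) (fun z x => Gd.sum_Bq_sq hN hy β b z x)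
  have hb := bpart hy hN hm' β a b s i
  set S := sy N K m β y a b s with hSdef
  have hS : S.Reg := Gen.gS_reg h s
  have nM : ∀ e : Ix N, Nh (ι := GI (Ix N) N K)
      (fun _ x => Me (spin (N := N) x) (spin x) e) := fun e => Nh.snd fun x =>
        Me (spin (N := N) x) (spin x) e
  have nP : ∀ e : Ix N, Nh (ι := GI (Ix N) N K)
      (fun _ x => spin (N := N) x e.1 * spin x e.2 / √(2 * (N : ℝ))) := fun e =>
    Nh.snd fun x => spin (N := N) x e.1 * spin x e.2 / √(2 * (N : ℝ))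
  have nB : ∀ e : Ix N, Nh (ι := GI (Ix N) N K) (fun z x => Gd.Bq N β y b e (r0 z) x) := hC.nB
  have hD : ∀ e : Ix N, Gen.gD (Gd.Dq N β y a b) spin s (Sum.inl e : GI (Ix N) N K) = fun z x =>
      (β * a) * (fun (_ : GI (Ix N) N K → ℝ) (x : Fin N → Bool) =>
        spin x e.1 * spin x e.2 / √(2 * (N : ℝ))) z x + Gd.Bq N β y b e (r0 z) x := by
    intro e
    funext z x
    exact hC.dB e z x
  have e1 : (fun z x => ∑ e : Ix N, Me (spin x) (spin x) e *
      Rec.Ti S i (Gen.gD (Gd.Dq N β y a b) spin s (Sum.inl e)) z x) = fun z x =>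
      (β * a) * ∑ e : Ix N, Me (spin x) (spin x) e *
        Rec.Ti S i (fun _ x => spin x e.1 * spin x e.2 / √(2 * (N : ℝ))) z x +
      ∑ e : Ix N, Me (spin x) (spin x) e *
        Rec.Ti S i (fun z x => Gd.Bq N β y b e (r0 z) x) z x := by
    funext z x
    rw [Finset.mul_sum, ← Finset.sum_add_distrib]
    refine Finset.sum_congr rfl fun e _ => ?_
    rw [hD e, Rec.Ti_add hS i (Nh.const_mul _ (nP e)) (nB e), Rec.Ti_const_mul]
    ring
  have n1 : Nh (fun (z : GI (Ix N) N K → ℝ) x => ∑ e : Ix N, Me (spin x) (spin x) e *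
        Rec.Ti S i (fun _ x => spin x e.1 * spin x e.2 / √(2 * (N : ℝ))) z x) :=
    Nh.sum _ fun e _ => Nh.mul (nM e) (Rec.nh_Ti hS i (nP e))
  have n2 : Nh (fun (z : GI (Ix N) N K → ℝ) x => ∑ e : Ix N, Me (spin x) (spin x) e *
        Rec.Ti S i (fun z x => Gd.Bq N β y b e (r0 z) x) z x) :=
    Nh.sum _ fun e _ => Nh.mul (nM e) (Rec.nh_Ti hS i (nB e))
  rw [e1, hS.Ex_add (Nh.const_mul _ n1) n2, Sy.Ex_const_mul, hb]
  have hmain := Rec.LL_main hC (A := fun _ => (1 : Matrix (Fin N) (Fin N) ℝ)) (EGM.const _)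
    i (S.K + 1) (S.K + 1)
  have e2 : ∀ (z : GI (Ix N) N K → ℝ) (x : Fin N → Bool),
      Rec.yv S spin (S.K + 1) z x = spin x := fun z x => Rec.yv_gt (by omega) z x
  simp only [e2, one_mulVec] at hmain
  rw [hmain]
  have e3 : Rec.PE S i (fun z x x' => (1 / (N : ℝ) * (spin x ⬝ᵥ spin x')) *
      (1 / (N : ℝ) * (spin x ⬝ᵥ spin x'))) = P2 S i := by
    unfold P2
    congr 1
    funext z x x'
    unfold Rov
    simp only [dotProduct]
    ring
  rw [e3]
  ring

/-- **The exact value of `T_w`.** -/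
theorem tw_exact (hy : 0 < y) (hN : 0 < N) (hm' : Exponents K m) (β a b : ℝ) (s : ℕ → ℝ) :
    Tw (sy N K m β y a b s) = β * a * (1 - ∑ l ∈ Finset.range (K + 1), (m (l + 1) - m l) *
      (sy N K m β y a b s).pairEx l (fun x x' => Rov spin x x' ^ 2)) -
      2 * (β * b) * EE y m (sy N K m β y a b s) := by
  have hN' : (0 : ℝ) < N := by exact_mod_cast hN
  have h := Gd.gd_Dq (K := K) hN hy hm' β a b
  have hC : Rec.Ctx (sy N K m β y a b s) (Gen.gD (Gd.Dq N β y a b) spin s)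
      (fun e => (Sum.inl e : GI (Ix N) N K)) spin (β * a)
      (fun e z x => Gd.Bq N β y b e (r0 z) x) (fun _ => 2 * β ^ 2 * b ^ 2 / y ^ 4) :=
    ctx_q (s := s) (c := β * a) (w := 2 * β ^ 2 * b ^ 2 / y ^ 4) hN h
    (fun _ _ _ => rfl) (fun e x => eg_Bq hN hy β b e x) (fun z x => Gd.sum_Bq_sq hN hy β b z x)
  have ht := fun i => tw_term_eq hy hN hm' β a b s i
  set S := sy N K m β y a b s with hSdef
  have hS : S.Reg := Gen.gS_reg h s
  have hSK : S.K = K := rfl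
  have hSp : ∀ l, S.p l = m (l + 1) - m l := fun l => rfl
  have h1 := Rec.ibp_sum hC (h := fun e _ x => Me (spin x) (spin x) e) (h' := fun _ _ _ => 0)
    (fun e x => PD.const _) (fun e => Nh.snd fun x => Me (spin (N := N) x) (spin x) e)
    (fun e => Nh.fst (EG.const 0))
  have e0 : S.Ex (fun z x => ∑ e : Ix N, z (Sum.inl e) * Me (spin x) (spin x) e) =
      N * Tw S := by
    unfold Tw
    have e1 : (fun (z : GI (Ix N) N K → ℝ) (x : Fin N → Bool) =>
        ∑ e : Ix N, z (Sum.inl e) * Me (spin x) (spin x) e) =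
        fun z x => qf (Wm N (r0 z)) (spin x) := by
      funext z x
      rw [qf_eq, ← sum_Me_z]
      rfl
    rw [e1]
    field_simp
  have e2 : S.Ex (fun (z : GI (Ix N) N K → ℝ) (x : Fin N → Bool) => ∑ e : Ix N, (0 : ℝ)) = 0 := by
    simp only [Finset.sum_const_zero]
    exact hS.Ex_const 0
  rw [e0, e2, zero_add, hSK] at h1
  simp only [hSp, ht] at h1
  have e3 : P2 S (K + 1) = 1 := P2_top hS hN
  have e4 : ∀ l ∈ Finset.range (K + 1), (m (l + 1) - m l) * (N * (β * a * P2 S l) -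
      2 * (β * b) / N * Rec.PE S l (HH N K y)) = N * (β * a) * ((m (l + 1) - m l) *
        S.pairEx l (fun x x' => Rov spin x x' ^ 2)) -
      2 * (β * b) / N * ((m (l + 1) - m l) * Rec.PE S l (HH N K y)) := by
    intro l hl
    have hl' : l ≤ S.K := Nat.lt_succ_iff.1 (Finset.mem_range.1 hl)
    rw [P2_le hS hl']
    ring
  rw [e3, Finset.sum_congr rfl e4, Finset.sum_sub_distrib, ← Finset.mul_sum,
    ← Finset.mul_sum] at h1
  have h2 : (N : ℝ) * Tw S = N * (β * a * (1 - ∑ l ∈ Finset.range (K + 1), (m (l + 1) - m l) *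
      S.pairEx l (fun x x' => Rov spin x x' ^ 2)) - 2 * (β * b) * EE y m S) := by
    rw [h1]
    unfold EE
    field_simp
    ring
  exact mul_left_cancel₀ hN'.ne' h2

end Vale.Agent.P146.R3.H316.Tw2
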